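import Mathlib

/-!
Compactness of the two sets of admissible densities (so that both maxima exist).
-/

namespace Vale.Agent.P034

open Finset

variable {X : Type*} [Fintype X] [DecidableEq X]

omit [DecidableEq X] in
lemma isCompact_small (F : Finset (Finset X)) :
    IsCompact {p : ℝ | p ∈ Set.Icc (0 : ℝ) 1 ∧ ∃ G : Finset (Finset X),
      (∀ H ∈ F, ∃ S ∈ G, S ⊆ H) ∧ ∑ S ∈ G, p ^ S.card ≤ 1 / 2} := by
  have h : {p : ℝ | p ∈ Set.Icc (0 : ℝ) 1 ∧ ∃ G : Finset (Finset X),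
      (∀ H ∈ F, ∃ S ∈ G, S ⊆ H) ∧ ∑ S ∈ G, p ^ S.card ≤ 1 / 2}
      = Set.Icc (0 : ℝ) 1 ∩ ⋃ G : {G : Finset (Finset X) // ∀ H ∈ F, ∃ S ∈ G, S ⊆ H},
        {p : ℝ | ∑ S ∈ G.1, p ^ S.card ≤ 1 / 2} := by
    ext p
    simp only [Set.mem_ofPred_eq, Set.mem_inter_iff, Set.mem_iUnion, Subtype.exists, exists_prop]
  rw [h]
  refine isCompact_Icc.inter_right (isClosed_iUnion_of_finite (fun G => ?_))
  exact isClosed_le (by fun_prop) continuous_const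

omit [DecidableEq X] in
lemma isCompact_frac (F : Finset (Finset X)) :
    IsCompact {p : ℝ | p ∈ Set.Icc (0 : ℝ) 1 ∧ ∃ g : Finset X → ℝ,
      ((∀ S, g S ∈ Set.Icc (0 : ℝ) 1) ∧ ∀ H ∈ F, 1 ≤ ∑ S ∈ H.powerset, g S) ∧
        ∑ S : Finset X, g S * p ^ S.card ≤ 1 / 2} := by
  have h : {p : ℝ | p ∈ Set.Icc (0 : ℝ) 1 ∧ ∃ g : Finset X → ℝ,
      ((∀ S, g S ∈ Set.Icc (0 : ℝ) 1) ∧ ∀ H ∈ F, 1 ≤ ∑ S ∈ H.powerset, g S) ∧
        ∑ S : Finset X, g S * p ^ S.card ≤ 1 / 2}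
      = Prod.fst '' ((Set.Icc (0 : ℝ) 1 ×ˢ Set.pi Set.univ (fun _ : Finset X => Set.Icc (0 : ℝ) 1))
        ∩ ((⋂ H ∈ F, {t : ℝ × (Finset X → ℝ) | 1 ≤ ∑ S ∈ H.powerset, t.2 S}) ∩
          {t : ℝ × (Finset X → ℝ) | ∑ S : Finset X, t.2 S * t.1 ^ S.card ≤ 1 / 2})) := by
    ext p
    simp only [Set.mem_ofPred_eq, Set.mem_image, Set.mem_inter_iff, Set.mem_prod, Set.mem_pi,
      Set.mem_univ, true_imp_iff, Set.mem_iInter]
    constructor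
    · rintro ⟨h1, g, ⟨h2, h3⟩, h4⟩
      exact ⟨(p, g), ⟨⟨h1, h2⟩, h3, h4⟩, rfl⟩
    · rintro ⟨⟨p', g⟩, ⟨⟨h1, h2⟩, h3, h4⟩, rfl⟩
      exact ⟨h1, g, ⟨h2, h3⟩, h4⟩
  rw [h]
  refine IsCompact.image ?_ continuous_fst
  refine (isCompact_Icc.prod (isCompact_univ_pi (fun _ => isCompact_Icc))).inter_right ?_
  refine IsClosed.inter (isClosed_biInter (fun H _ => ?_)) ?_
  · exact isClosed_le continuous_const (by fun_prop)
  · exact isClosed_le (by fun_prop) continuous_const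

omit [Fintype X] [DecidableEq X] in
lemma zero_cost (F : Finset (Finset X)) (h : ∅ ∉ F) : ∑ S ∈ F, (0 : ℝ) ^ S.card ≤ 1 / 2 := by
  rw [sum_eq_zero]
  · norm_num
  · intro S hS
    refine zero_pow ?_
    intro hc
    rw [card_eq_zero] at hc
    exact h (hc ▸ hS)

lemma zero_frac (F : Finset (Finset X)) (h : ∅ ∉ F) : ∃ g : Finset X → ℝ,
    ((∀ S, g S ∈ Set.Icc (0 : ℝ) 1) ∧ ∀ H ∈ F, 1 ≤ ∑ S ∈ H.powerset, g S) ∧
      ∑ S : Finset X, g S * (0 : ℝ) ^ S.card ≤ 1 / 2 := by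
  refine ⟨fun S => if S ∈ F then 1 else 0, ⟨?_, ?_⟩, ?_⟩
  · intro S
    dsimp only
    split_ifs <;> simp
  · intro H hH
    have := single_le_sum (f := fun S : Finset X => if S ∈ F then (1 : ℝ) else 0)
      (s := H.powerset) (fun S _ => by split_ifs <;> simp) (mem_powerset_self H)
    simpa [hH] using this
  · simp only [ite_mul, one_mul, zero_mul]
    rw [← sum_filter, filter_mem_eq_inter, univ_inter]
    exact zero_cost F h

end Vale.Agent.P034
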