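import Vale.Agent.P034.Count

/-!
The first-moment step and the rounding theorem.
-/

namespace Vale.Agent.P034

open Finset

variable {X : Type*} [Fintype X] [DecidableEq X]

/-- Size-normalised degrees of a fractional cover inside `H`. -/
noncomputable def deg (g : Finset X → ℝ) (H : Finset X) (x : X) : ℝ :=
  ∑ S ∈ H.powerset, if x ∈ S then g S / S.card else 0

/-- The tilt. -/
noncomputable def tilt (j : ℕ) : ℝ := 16 ^ 4 * (1 / 16) ^ j

lemma tilt_pos (j : ℕ) : 0 < tilt j := by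
  unfold tilt
  positivity

/-- The test statistic. -/
noncomputable def stat (g : Finset X → ℝ) (a : X → ℕ) : ℝ :=
  ∑ S ∈ (univ : Finset (Finset X)).erase ∅, g S * ∏ x ∈ S, tilt (a x)

omit [Fintype X] [DecidableEq X] in
lemma tilt_prod_ge (S : Finset X) (hS : S.Nonempty) (a : X → ℕ) :
    1 / 2 + (1 / 4) * ((∑ x ∈ S, ((2 : ℝ) - a x)) / S.card) ≤ ∏ x ∈ S, tilt (a x) := by
  have hc : (0 : ℝ) < S.card := by exact_mod_cast hS.card_pos
  have e1 : ∏ x ∈ S, tilt (a x) = 16 ^ (4 * S.card) / 16 ^ (∑ x ∈ S, a x) := by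
    unfold tilt
    rw [prod_mul_distrib, prod_const, prod_pow_eq_pow_sum, ← pow_mul, one_div, inv_pow,
      div_eq_mul_inv]
  have e2 : (∑ x ∈ S, ((2 : ℝ) - a x)) / S.card = 2 - ((∑ x ∈ S, a x : ℕ) : ℝ) / S.card := by
    rw [sum_sub_distrib, sum_const, nsmul_eq_mul]
    push_cast
    field_simp
  rw [e2]
  by_cases h : ∑ x ∈ S, a x ≤ 4 * S.card
  · have e3 : (1 : ℝ) ≤ 16 ^ (4 * S.card) / 16 ^ (∑ x ∈ S, a x) := by
      rw [le_div_iff₀ (by positivity), one_mul]
      exact pow_le_pow_right₀ (by norm_num) h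
    have e4 : (0 : ℝ) ≤ ((∑ x ∈ S, a x : ℕ) : ℝ) / S.card := by positivity
    rw [e1]
    linarith
  · have e3 : (4 : ℝ) ≤ ((∑ x ∈ S, a x : ℕ) : ℝ) / S.card := by
      rw [le_div_iff₀ hc]
      have : 4 * S.card ≤ ∑ x ∈ S, a x := by omega
      exact_mod_cast this
    have e4 : 0 < ∏ x ∈ S, tilt (a x) := prod_pos (fun x _ => tilt_pos _)
    linarith

lemma stat_ge_of_good (F : Finset (Finset X)) (g : Finset X → ℝ) (hg : ∀ S, 0 ≤ g S)
    (hcov : ∀ H ∈ F, 1 ≤ ∑ S ∈ H.powerset, g S) (hg0 : g ∅ ≤ 1 / 2) (a : X → ℕ)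
    (ha : Good (deg g) F a) : 1 / 4 ≤ stat g a := by
  obtain ⟨H, hH, hOK⟩ := ha
  have h1 : 0 ≤ ∑ y ∈ H, deg g H y * ((2 : ℝ) - a y) := by
    refine layer_cake (fun y => (2 : ℝ) - a y) H.card H (deg g H) le_rfl ?_ ?_
    · intro x _
      refine sum_nonneg (fun S _ => ?_)
      have := hg S
      split_ifs <;> positivity
    · intro x hx
      exact sum_le_of_OK (deg g) H a hOK x hx
  have h2 : ∑ y ∈ H, deg g H y * ((2 : ℝ) - a y)
      = ∑ S ∈ H.powerset, g S * ((∑ x ∈ S, ((2 : ℝ) - a x)) / S.card) := by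
    unfold deg
    simp only [sum_mul]
    rw [sum_comm]
    refine sum_congr rfl (fun S hS => ?_)
    have hSH : S ⊆ H := mem_powerset.1 hS
    simp only [ite_mul, zero_mul]
    rw [← sum_filter, filter_mem_eq_inter, inter_eq_right.2 hSH, ← mul_sum]
    ring
  have hE : ∅ ∈ H.powerset := empty_mem_powerset H
  have h3 : ∑ S ∈ H.powerset.erase ∅, g S * ((∑ x ∈ S, ((2 : ℝ) - a x)) / S.card)
      = ∑ S ∈ H.powerset, g S * ((∑ x ∈ S, ((2 : ℝ) - a x)) / S.card) := by
    refine sum_erase _ (by simp)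
  have h4 : 1 / 2 ≤ ∑ S ∈ H.powerset.erase ∅, g S := by
    have := add_sum_erase H.powerset g hE
    have := hcov H hH
    linarith
  have h5 : ∑ S ∈ H.powerset.erase ∅, g S * ∏ x ∈ S, tilt (a x) ≤ stat g a := by
    refine sum_le_sum_of_subset_of_nonneg (erase_subset_erase _ (subset_univ _)) ?_
    intro S _ _
    exact mul_nonneg (hg S) (prod_pos (fun x _ => tilt_pos _)).le
  have h6 : ∑ S ∈ H.powerset.erase ∅,
      g S * (1 / 2 + (1 / 4) * ((∑ x ∈ S, ((2 : ℝ) - a x)) / S.card))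
      ≤ ∑ S ∈ H.powerset.erase ∅, g S * ∏ x ∈ S, tilt (a x) := by
    refine sum_le_sum (fun S hS => ?_)
    exact mul_le_mul_of_nonneg_left
      (tilt_prod_ge S (nonempty_iff_ne_empty.2 (mem_erase.1 hS).1) a) (hg S)
  have h7 : ∑ S ∈ H.powerset.erase ∅,
      g S * (1 / 2 + (1 / 4) * ((∑ x ∈ S, ((2 : ℝ) - a x)) / S.card))
      = (1 / 2) * ∑ S ∈ H.powerset.erase ∅, g S + (1 / 4) *
        ∑ S ∈ H.powerset.erase ∅, g S * ((∑ x ∈ S, ((2 : ℝ) - a x)) / S.card) := by
    rw [mul_sum, mul_sum, ← sum_add_distrib]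
    exact sum_congr rfl (fun S _ => by ring)
  linarith

lemma exp_tilt_le (p : ℝ) (hp : 0 ≤ p) (s : ℕ) (pi : ℕ → ℝ)
    (h3 : ∀ k ≤ s, pi k ≤ 1000 * p * 8 ^ k) :
    ∑ j ∈ range (s + 1), pi j * tilt j ≤ 131072000 * p := by
  have e1 : ∀ j ∈ range (s + 1), pi j * tilt j ≤ 65536000 * p * (1 / 2) ^ j := by
    intro j hj
    have := h3 j (Nat.lt_succ_iff.1 (mem_range.1 hj))
    refine (mul_le_mul_of_nonneg_right this (tilt_pos j).le).trans (le_of_eq ?_)
    unfold tilt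
    have : (1 / 2 : ℝ) ^ j = 8 ^ j * (1 / 16) ^ j := by
      rw [← mul_pow]; norm_num
    rw [this]
    ring
  refine (sum_le_sum e1).trans ?_
  rw [← mul_sum]
  have := sum_geometric_two_le (s + 1)
  nlinarith

lemma exp_stat_le (g : Finset X → ℝ) (hg : ∀ S, 0 ≤ g S) (p : ℝ) (hp : 0 ≤ p) (s : ℕ)
    (pi : ℕ → ℝ) (h0 : ∀ k, 0 ≤ pi k) (h1 : ∑ k ∈ range (s + 1), pi k = 1)
    (h3 : ∀ k ≤ s, pi k ≤ 1000 * p * 8 ^ k)
    (hw : ∑ S : Finset X, g S * (524288000 * p) ^ S.card ≤ 1 / 2) :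
    ∑ a ∈ Om X s, (∏ x, pi (a x)) * stat g a ≤ 1 / 8 := by
  set m : ℝ := ∑ j ∈ range (s + 1), pi j * tilt j with hm
  have hm0 : 0 ≤ m := sum_nonneg (fun j _ => mul_nonneg (h0 j) (tilt_pos j).le)
  have hm1 : m ≤ 131072000 * p := exp_tilt_le p hp s pi h3
  have e1 : ∀ S : Finset X,
      ∑ a ∈ Om X s, (∏ x, pi (a x)) * ∏ x ∈ S, tilt (a x) = m ^ S.card := by
    intro S
    have : ∀ a : X → ℕ, (∏ x, pi (a x)) * ∏ x ∈ S, tilt (a x)
        = ∏ x, (pi (a x) * if x ∈ S then tilt (a x) else 1) := by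
      intro a
      rw [prod_mul_distrib, ← prod_filter, filter_mem_eq_inter, univ_inter]
    simp only [this]
    unfold Om
    rw [← prod_univ_sum (fun _ : X => range (s + 1))
      (fun x j => pi j * if x ∈ S then tilt j else 1)]
    have : ∀ x, ∑ j ∈ range (s + 1), (pi j * if x ∈ S then tilt j else 1)
        = if x ∈ S then m else 1 := by
      intro x
      split_ifs
      · rfl
      · simp [h1]
    simp only [this]
    rw [← prod_filter, filter_mem_eq_inter, univ_inter, prod_const]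
  have e2 : ∑ a ∈ Om X s, (∏ x, pi (a x)) * stat g a
      = ∑ S ∈ (univ : Finset (Finset X)).erase ∅, g S * m ^ S.card := by
    unfold stat
    simp only [mul_sum]
    rw [sum_comm]
    refine sum_congr rfl (fun S _ => ?_)
    rw [← e1 S, mul_sum]
    exact sum_congr rfl (fun a _ => by ring)
  have e3 : ∀ S ∈ (univ : Finset (Finset X)).erase ∅,
      g S * m ^ S.card ≤ (1 / 4) * (g S * (524288000 * p) ^ S.card) := by
    intro S hS
    have hc : 1 ≤ S.card := (nonempty_iff_ne_empty.2 (mem_erase.1 hS).1).card_pos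
    have f1 : m ^ S.card ≤ ((1 / 4) * (524288000 * p)) ^ S.card :=
      pow_le_pow_left₀ hm0 (by linarith) _
    have f2 : (1 / 4 : ℝ) ^ S.card ≤ (1 / 4) ^ 1 :=
      pow_le_pow_of_le_one (by norm_num) (by norm_num) hc
    have f3 : (0 : ℝ) ≤ (524288000 * p) ^ S.card := by positivity
    rw [mul_pow] at f1
    have f4 := mul_le_mul_of_nonneg_right f2 f3
    have f5 : m ^ S.card ≤ (1 / 4) * (524288000 * p) ^ S.card := by linarith
    have f6 := mul_le_mul_of_nonneg_left f5 (hg S)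
    linarith
  have e4 : ∑ S ∈ (univ : Finset (Finset X)).erase ∅, g S * (524288000 * p) ^ S.card
      ≤ ∑ S : Finset X, g S * (524288000 * p) ^ S.card := by
    refine sum_le_sum_of_subset_of_nonneg (erase_subset _ _) ?_
    intro S _ _
    have := hg S
    positivity
  have e5 := sum_le_sum e3
  rw [← mul_sum] at e5
  linarith

lemma exists_levels (p : ℝ) (hp : 0 < p) : ∃ (s : ℕ) (pi : ℕ → ℝ), (∀ k, 0 ≤ pi k) ∧
    ∑ k ∈ range (s + 1), pi k = 1 ∧ (∀ k < s, pi k = 1000 * p * 8 ^ k) ∧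
    ∀ k ≤ s, pi k ≤ 1000 * p * 8 ^ k := by
  classical
  have hex : ∃ s : ℕ, 1 ≤ ∑ k ∈ range (s + 1), 1000 * p * 8 ^ k := by
    obtain ⟨n, hn⟩ := pow_unbounded_of_one_lt (1 / (1000 * p)) (by norm_num : (1 : ℝ) < 8)
    refine ⟨n, le_trans ?_ (single_le_sum (f := fun k => 1000 * p * 8 ^ k)
      (fun k _ => by positivity) (self_mem_range_succ n))⟩
    rw [div_lt_iff₀ (by positivity)] at hn
    linarith
  set s := Nat.find hex with hs
  have hs1 : 1 ≤ ∑ k ∈ range (s + 1), 1000 * p * 8 ^ k := Nat.find_spec hex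
  have hs2 : ∑ k ∈ range s, 1000 * p * 8 ^ k ≤ 1 := by
    rcases Nat.eq_zero_or_pos s with h | h
    · simp [h]
    · have := Nat.find_min hex (m := s - 1) (by omega)
      rw [Nat.sub_add_cancel h] at this
      exact (not_le.1 this).le
  refine ⟨s, fun k => if k < s then 1000 * p * 8 ^ k else 1 - ∑ k ∈ range s, 1000 * p * 8 ^ k,
    ?_, ?_, ?_, ?_⟩
  · intro k
    dsimp only
    split_ifs
    · positivity
    · linarith
  · rw [sum_range_succ, if_neg (lt_irrefl s),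
      sum_congr rfl (fun k hk => if_pos (mem_range.1 hk))]
    ring
  · intro k hk
    exact if_pos hk
  · intro k hk
    dsimp only
    split_ifs with h
    · exact le_rfl
    · have : k = s := by omega
      rw [sum_range_succ] at hs1
      rw [this]
      linarith

/-- Rounding theorem: a cheap fractional cover at `L p` yields a cheap integral cover at `p`. -/
theorem rounding (F : Finset (Finset X)) (g : Finset X → ℝ) (hg : ∀ S, 0 ≤ g S)
    (hcov : ∀ H ∈ F, 1 ≤ ∑ S ∈ H.powerset, g S) (p : ℝ) (hp : 0 < p)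
    (hw : ∑ S : Finset X, g S * (524288000 * p) ^ S.card ≤ 1 / 2) :
    ∃ G : Finset (Finset X), (∀ H ∈ F, ∃ S ∈ G, S ⊆ H) ∧ ∑ S ∈ G, p ^ S.card ≤ 1 / 2 := by
  classical
  by_contra hcon
  have hns : ∀ G : Finset (Finset X), (∀ H ∈ F, ∃ S ∈ G, S ⊆ H) →
      1 / 2 < ∑ S ∈ G, p ^ S.card := by
    intro G hG
    by_contra h
    exact hcon ⟨G, hG, not_lt.1 h⟩
  obtain ⟨s, pi, h0, h1, h2, h3⟩ := exists_levels p hp
  have hP0 : ∀ a : X → ℕ, 0 ≤ ∏ x, pi (a x) := fun a => prod_nonneg (fun x _ => h0 _)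
  have hg0 : g ∅ ≤ 1 / 2 := by
    have := single_le_sum (f := fun S : Finset X => g S * (524288000 * p) ^ S.card)
      (fun S _ => by have := hg S; positivity) (mem_univ ∅)
    simp only [card_empty, pow_zero, mul_one] at this
    linarith
  have e1 := prob_bad_le (deg g) F p hp.le s hns pi h0 h1 h2
  have e2 := exp_stat_le g hg p hp.le s pi h0 h1 h3 hw
  have e3 : ∑ z ∈ Om X s, ∏ x, pi (z x) = 1 := by
    unfold Om
    rw [← prod_univ_sum]
    simp [h1]
  have e4 : (∑ a ∈ (Om X s).filter (fun a => Good (deg g) F a), ∏ x, pi (a x)) * (1 / 4)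
      ≤ ∑ a ∈ Om X s, (∏ x, pi (a x)) * stat g a := by
    rw [sum_mul]
    refine le_trans (sum_le_sum ?_) (sum_le_sum_of_subset_of_nonneg
      (filter_subset (fun a => Good (deg g) F a) _) ?_)
    · intro a ha
      exact mul_le_mul_of_nonneg_left
        (stat_ge_of_good F g hg hcov hg0 a (mem_filter.1 ha).2) (hP0 a)
    · intro a _ _
      refine mul_nonneg (hP0 a) (sum_nonneg (fun S _ => ?_))
      exact mul_nonneg (hg S) (prod_pos (fun x _ => tilt_pos _)).le
  have e5 := sum_filter_add_sum_filter_not (Om X s) (fun a => Good (deg g) F a)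
    (fun a => ∏ x, pi (a x))
  linarith

end Vale.Agent.P034
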