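import Vale.Agent.P034.Fragment

/-!
The counting step: the expected cost of the fragment covers is small.
-/

namespace Vale.Agent.P034

open Finset

variable {X : Type*} [Fintype X] [DecidableEq X]

open Classical in
/-- A canonical witness for the slack condition. -/
noncomputable def wit (lam : Finset X → X → ℝ) (F : Finset (Finset X)) (z : X → ℕ)
    (M : ℕ → ℕ) : Finset X :=
  if h : ∃ H ∈ F, OK lam H z M then h.choose else ∅

/-- The relation satisfied by a level function and a maximal lowering of it. -/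
def Rel (lam : Finset X → X → ℝ) (F : Finset (Finset X)) (a z : X → ℕ) : Prop :=
  (∀ x, z x ≤ a x) ∧ z ≠ a ∧
    ∀ x, z x < a x → x ∈ box lam (wit lam F z (slack a z)) (2 ^ z x * slack a z (z x))

/-- Good level functions. -/
def Good (lam : Finset X → X → ℝ) (F : Finset (Finset X)) (a : X → ℕ) : Prop :=
  ∃ H ∈ F, OK lam H a (fun _ => 0)

/-- The space of level functions. -/
def Om (X : Type*) [Fintype X] [DecidableEq X] (s : ℕ) : Finset (X → ℕ) :=
  Fintype.piFinset (fun _ : X => range (s + 1))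

lemma mem_Om {s : ℕ} {a : X → ℕ} : a ∈ Om X s ↔ ∀ x, a x ≤ s := by
  unfold Om
  rw [Fintype.mem_piFinset]
  simp only [mem_range, Nat.lt_succ_iff]

/-- The set of lowered points. -/
def low (a z : X → ℕ) : Finset X := univ.filter (fun x => z x < a x)

open Classical in
lemma bad_cost (lam : Finset X → X → ℝ) (F : Finset (Finset X)) (p : ℝ) (hp : 0 ≤ p) (s : ℕ)
    (hns : ∀ G : Finset (Finset X), (∀ H ∈ F, ∃ S ∈ G, S ⊆ H) → 1 / 2 < ∑ S ∈ G, p ^ S.card)
    (a : X → ℕ) (ha : a ∈ Om X s) (hbad : ¬ Good lam F a) :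
    1 / 2 ≤ ∑ z ∈ (Om X s).filter (Rel lam F a), p ^ (low a z).card := by
  have hcov : ∀ H ∈ F, ∃ S ∈ ((Om X s).filter (Rel lam F a)).image (low a), S ⊆ H := by
    intro H0 hH0
    obtain ⟨z, hadm, hmax⟩ := exists_max_adm lam F a H0 hH0
    refine ⟨low a z, mem_image_of_mem _ (mem_filter.2 ⟨?_, hadm.1, ?_, ?_⟩), ?_⟩
    · rw [mem_Om] at ha ⊢
      exact fun x => (hadm.1 x).trans (ha x)
    · intro hza
      apply hbad
      obtain ⟨H, hH, hOK⟩ := hadm.2.2
      refine ⟨H, hH, ?_⟩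
      have : slack a z = fun _ => 0 := by
        funext k
        simp [slack, hza]
      rw [this, hza] at hOK
      exact hOK
    · have hex := hadm.2.2
      have hw : wit lam F z (slack a z) = hex.choose := by
        unfold wit
        rw [dif_pos hex]
      rw [hw]
      exact hmax _ hex.choose_spec.1 hex.choose_spec.2
    · intro x hx
      exact hadm.2.1 x (mem_filter.1 hx).2
  refine (hns _ hcov).le.trans ?_
  exact sum_image_le_of_nonneg (fun S _ => pow_nonneg hp _)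

omit [Fintype X] [DecidableEq X] in
lemma prod_fiber (U : Finset X) (z : X → ℕ) (s : ℕ) (hU : ∀ x ∈ U, z x < s) (f : ℕ → ℝ) :
    ∏ x ∈ U, f (z x) = ∏ k : Fin s, f k ^ (U.filter (fun x => z x = k)).card := by
  rw [← prod_fiberwise_of_maps_to (t := range s) (g := z) (fun x hx => mem_range.2 (hU x hx))]
  rw [Fin.prod_univ_eq_prod_range (fun k => f k ^ (U.filter (fun x => z x = k)).card) s]
  refine prod_congr rfl (fun k _ => ?_)
  rw [prod_congr rfl (g := fun _ => f k), prod_const]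
  intro x hx
  rw [(mem_filter.1 hx).2]

omit [Fintype X] [DecidableEq X] in
lemma sum_fiber {R : Type*} [AddCommMonoid R] (U : Finset X) (z : X → ℕ) (s : ℕ)
    (hU : ∀ x ∈ U, z x < s) (f : ℕ → R) :
    ∑ x ∈ U, f (z x) = ∑ k : Fin s, (U.filter (fun x => z x = k)).card • f k := by
  rw [← sum_fiberwise_of_maps_to (t := range s) (g := z) (fun x hx => mem_range.2 (hU x hx))]
  rw [Fin.sum_univ_eq_sum_range (fun k => (U.filter (fun x => z x = k)).card • f k) s]
  refine sum_congr rfl (fun k _ => ?_)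
  rw [sum_congr rfl (g := fun _ => f k), sum_const]
  intro x hx
  rw [(mem_filter.1 hx).2]

/-- Number of lowered points on each level. -/
def ucount (s : ℕ) (a z : X → ℕ) : Fin s → ℕ :=
  fun k => ((low a z).filter (fun x => z x = k)).card

/-- Cumulative counts. -/
def cumul {s : ℕ} (u : Fin s → ℕ) (k : ℕ) : ℕ := ∑ j : Fin s, if (j : ℕ) ≤ k then u j else 0

omit [DecidableEq X] in
lemma low_lt {s : ℕ} {a z : X → ℕ} (ha : ∀ x, a x ≤ s) : ∀ x ∈ low a z, z x < s :=
  fun x hx => lt_of_lt_of_le (mem_filter.1 hx).2 (ha x)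

omit [DecidableEq X] in
lemma slack_eq_cumul {s : ℕ} {a z : X → ℕ} (ha : ∀ x, a x ≤ s) :
    slack a z = cumul (ucount s a z) := by
  funext k
  have h := sum_fiber (low a z) z s (low_lt ha) (fun j => if j ≤ k then (1 : ℕ) else 0)
  have h1 : slack a z k = ∑ x ∈ low a z, if z x ≤ k then (1 : ℕ) else 0 := by
    rw [← card_filter]
    unfold slack low
    rw [filter_filter]
    congr 1
    ext x
    simp [and_comm]
  rw [h1, h]
  unfold cumul ucount
  refine sum_congr rfl (fun j _ => ?_)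
  split_ifs <;> simp

lemma cumul_le {s : ℕ} (u : Fin s → ℕ) (k : ℕ) : cumul u k ≤ ∑ j, u j := by
  unfold cumul
  refine sum_le_sum (fun j _ => ?_)
  split_ifs <;> simp

omit [Fintype X] [DecidableEq X] in
lemma box_sum_le (lam : Finset X → X → ℝ) (H : Finset X) (z : X → ℕ) {s : ℕ} (u : Fin s → ℕ)
    (B : Finset X) (hB : ∀ x ∈ B, z x < s ∧ x ∈ box lam H (2 ^ z x * cumul u (z x))) :
    ∑ x ∈ B, (1 / 2 * (1 / 4 : ℝ) ^ z x) ≤ ∑ j, (u j : ℝ) := by
  rw [sum_fiber B z s (fun x hx => (hB x hx).1) (fun k => 1 / 2 * (1 / 4 : ℝ) ^ k)]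
  set N : ℝ := ∑ j, (u j : ℝ) with hN
  have hN0 : 0 ≤ N := sum_nonneg (fun j _ => by positivity)
  have h1 : ∀ k : Fin s, (B.filter (fun x => z x = k)).card • (1 / 2 * (1 / 4 : ℝ) ^ (k : ℕ))
      ≤ N / 2 * (1 / 2) ^ (k : ℕ) := by
    intro k
    have h2 : (B.filter (fun x => z x = k)).card ≤ 2 ^ (k : ℕ) * ∑ j, u j := by
      refine le_trans (card_le_card (t := box lam H (2 ^ (k : ℕ) * cumul u k)) ?_) ?_
      · intro x hx
        have hx' := mem_filter.1 hx
        have := (hB x hx'.1).2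
        rwa [hx'.2] at this
      · exact (card_box_le _ _ _).trans (Nat.mul_le_mul_left _ (cumul_le u k))
    have h3 : ((B.filter (fun x => z x = k)).card : ℝ) ≤ 2 ^ (k : ℕ) * N := by
      rw [hN]
      exact_mod_cast h2
    rw [nsmul_eq_mul]
    calc _ ≤ (2 ^ (k : ℕ) * N) * (1 / 2 * (1 / 4 : ℝ) ^ (k : ℕ)) :=
          mul_le_mul_of_nonneg_right h3 (by positivity)
      _ = N / 2 * ((2 : ℝ) * (1 / 4)) ^ (k : ℕ) := by rw [mul_pow]; ring
      _ = N / 2 * (1 / 2) ^ (k : ℕ) := by norm_num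
  refine (sum_le_sum (fun k _ => h1 k)).trans ?_
  rw [← mul_sum, Fin.sum_univ_eq_sum_range (fun k => ((1 : ℝ) / 2) ^ k) s]
  have := sum_geometric_two_le s
  nlinarith

open Classical in
lemma fixed_zu (lam : Finset X → X → ℝ) (F : Finset (Finset X)) (p : ℝ) (hp : 0 ≤ p) (s : ℕ)
    (pi : ℕ → ℝ) (h0 : ∀ k, 0 ≤ pi k) (h1 : ∑ k ∈ range (s + 1), pi k = 1)
    (h2 : ∀ k < s, pi k = 1000 * p * 8 ^ k) (z : X → ℕ) (hz : z ∈ Om X s) (u : Fin s → ℕ) :
    ∑ a ∈ ((Om X s).filter (fun a => Rel lam F a z)).filter (fun a => ucount s a z = u),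
      (∏ x, pi (a x)) * p ^ (low a z).card
      ≤ (∏ x, pi (z x)) * ∏ k : Fin s, (3 / 500 * (1 / 2 : ℝ) ^ (k : ℕ)) ^ u k := by
  set c : ℕ → ℝ := fun k => 500 * 2 ^ k with hc
  have hcpos : ∀ k, 0 < c k := fun k => by positivity
  set B : Finset X := univ.filter
    (fun x => z x < s ∧ x ∈ box lam (wit lam F z (cumul u)) (2 ^ z x * cumul u (z x))) with hB
  set phi : X → ℕ → ℝ := fun x j =>
    if j = z x then pi j else if x ∈ B then c (z x) * p * pi j else 0 with hphi
  have hphi0 : ∀ x j, 0 ≤ phi x j := by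
    intro x j
    have := h0 j
    have := hcpos (z x)
    simp only [hphi]
    split_ifs <;> positivity
  set C : ℝ := ∏ k : Fin s, c k ^ u k with hC
  have hCpos : 0 < C := prod_pos (fun k _ => pow_pos (hcpos k) _)
  have step1 : ∀ a ∈ ((Om X s).filter (fun a => Rel lam F a z)).filter
      (fun a => ucount s a z = u),
      (∏ x, pi (a x)) * p ^ (low a z).card * C = ∏ x, phi x (a x) := by
    intro a ha
    obtain ⟨ha1, hu⟩ := mem_filter.1 ha
    obtain ⟨ha2, hrel⟩ := mem_filter.1 ha1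
    rw [mem_Om] at ha2
    have hCe : C = ∏ x ∈ low a z, c (z x) := by
      rw [prod_fiber (low a z) z s (low_lt ha2) c, hC, ← hu]
      rfl
    have hsl : slack a z = cumul u := by rw [slack_eq_cumul ha2, hu]
    rw [hCe, ← prod_const, mul_assoc, ← prod_mul_distrib]
    unfold low
    rw [prod_filter, ← prod_mul_distrib]
    refine prod_congr rfl (fun x _ => ?_)
    simp only [hphi]
    by_cases hlt : z x < a x
    · have hxB : x ∈ B := by
        refine mem_filter.2 ⟨mem_univ _, lt_of_lt_of_le hlt (ha2 x), ?_⟩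
        have := hrel.2.2 x hlt
        rwa [hsl] at this
      rw [if_pos hlt, if_neg (by omega), if_pos hxB]
      ring
    · have := hrel.1 x
      rw [if_neg hlt, if_pos (by omega)]
      ring
  have step2 : ∀ x, ∑ j ∈ range (s + 1), phi x j
      ≤ pi (z x) * Real.exp (if x ∈ B then 1 / 2 * (1 / 4 : ℝ) ^ z x else 0) := by
    intro x
    have hzx : z x ∈ range (s + 1) := mem_range.2 (Nat.lt_succ_of_le (mem_Om.1 hz x))
    by_cases hxB : x ∈ B
    · have hzs : z x < s := (mem_filter.1 hxB).2.1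
      have e1 : ∀ j ∈ range (s + 1), phi x j
          ≤ (if j = z x then pi j else 0) + c (z x) * p * pi j := by
        intro j _
        have := h0 j
        have := hcpos (z x)
        have : 0 ≤ c (z x) * p * pi j := by positivity
        simp only [hphi, hxB, if_true]
        split_ifs <;> linarith
      refine (sum_le_sum e1).trans ?_
      rw [sum_add_distrib, sum_ite_eq' , if_pos hzx, ← mul_sum, h1, if_pos hxB]
      have e2 : c (z x) * p * 1 = pi (z x) * (1 / 2 * (1 / 4 : ℝ) ^ z x) := by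
        rw [h2 _ hzs]
        simp only [hc]
        have : (2 : ℝ) ^ z x = 8 ^ z x * (1 / 4) ^ z x := by
          rw [← mul_pow]; norm_num
        rw [this]
        ring
      rw [e2]
      have e3 := Real.add_one_le_exp (1 / 2 * (1 / 4 : ℝ) ^ z x)
      have e4 := mul_le_mul_of_nonneg_left e3 (h0 (z x))
      linarith
    · simp only [hphi, hxB, if_false]
      rw [sum_ite_eq', if_pos hzx]
      simp
  have step3 : ∑ a ∈ Om X s, ∏ x, phi x (a x) ≤ (∏ x, pi (z x)) * Real.exp (∑ j, (u j : ℝ)) := by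
    unfold Om
    rw [← prod_univ_sum]
    refine (prod_le_prod (fun x _ => sum_nonneg (fun j _ => hphi0 x j))
      (fun x _ => step2 x)).trans ?_
    rw [prod_mul_distrib, ← Real.exp_sum]
    refine mul_le_mul_of_nonneg_left ?_ (prod_nonneg (fun x _ => h0 _))
    rw [Real.exp_le_exp, ← sum_filter, filter_mem_eq_inter, univ_inter]
    exact box_sum_le lam _ z u B (fun x hx => (mem_filter.1 hx).2)
  have step4 : Real.exp (∑ j, (u j : ℝ))
      ≤ (∏ k : Fin s, (3 / 500 * (1 / 2 : ℝ) ^ (k : ℕ)) ^ u k) * C := by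
    rw [hC, ← prod_mul_distrib, Real.exp_sum]
    refine prod_le_prod (fun k _ => (Real.exp_pos _).le) (fun k _ => ?_)
    rw [← mul_pow]
    have e1 : 3 / 500 * (1 / 2 : ℝ) ^ (k : ℕ) * c k = 3 := by
      simp only [hc]
      have : (1 / 2 : ℝ) ^ (k : ℕ) * 2 ^ (k : ℕ) = 1 := by
        rw [← mul_pow]; norm_num
      linear_combination 3 * this
    rw [e1, ← Real.exp_one_pow]
    refine pow_le_pow_left₀ (Real.exp_pos _).le ?_ _
    have := Real.exp_one_lt_d9
    linarith
  refine le_of_mul_le_mul_right ?_ hCpos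
  rw [sum_mul, sum_congr rfl step1]
  refine le_trans (sum_le_sum_of_subset_of_nonneg ?_ ?_) (step3.trans ?_)
  · exact (filter_subset _ _).trans (filter_subset _ _)
  · intro a _ _
    exact prod_nonneg (fun x _ => hphi0 _ _)
  · rw [mul_assoc]
    exact mul_le_mul_of_nonneg_left step4 (prod_nonneg (fun x _ => h0 _))

lemma geom_prod_le (s n : ℕ) :
    ∏ k : Fin s, ∑ j ∈ range (n + 1), (3 / 500 * (1 / 2 : ℝ) ^ (k : ℕ)) ^ j ≤ 1 + 1 / 8 := by
  have h1 : ∀ k : Fin s, ∑ j ∈ range (n + 1), (3 / 500 * (1 / 2 : ℝ) ^ (k : ℕ)) ^ j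
      ≤ Real.exp (3 / 250 * (1 / 2 : ℝ) ^ (k : ℕ)) := by
    intro k
    have hk1 : (1 / 2 : ℝ) ^ (k : ℕ) ≤ 1 := pow_le_one₀ (by norm_num) (by norm_num)
    have hk0 : (0 : ℝ) ≤ (1 / 2 : ℝ) ^ (k : ℕ) := by positivity
    set b : ℝ := 3 / 500 * (1 / 2 : ℝ) ^ (k : ℕ) with hb
    have hb0 : 0 ≤ b := by positivity
    have hb1 : b ≤ 1 / 2 := by rw [hb]; linarith
    have e1 : ∀ m : ℕ, ∑ j ∈ range (m + 1), b ^ j ≤ 1 + 2 * b := by
      intro m
      induction m with
      | zero => simp; linarith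
      | succ m ih =>
        rw [geom_sum_succ]
        nlinarith
    have e2 := Real.add_one_le_exp (2 * b)
    have e3 : 3 / 250 * (1 / 2 : ℝ) ^ (k : ℕ) = 2 * b := by rw [hb]; ring
    rw [e3]
    linarith [e1 n]
  refine (prod_le_prod (fun k _ => sum_nonneg (fun j _ => by positivity))
    (fun k _ => h1 k)).trans ?_
  rw [← Real.exp_sum, ← mul_sum, Fin.sum_univ_eq_sum_range (fun k => ((1 : ℝ) / 2) ^ k) s]
  have h2 := sum_geometric_two_le s
  have h3 : Real.exp (3 / 250 * ∑ k ∈ range s, ((1 : ℝ) / 2) ^ k) ≤ Real.exp (1 / 10) := by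
    rw [Real.exp_le_exp]
    linarith
  refine h3.trans ?_
  have h4 := Real.exp_bound_div_one_sub_of_interval (x := 1 / 10) (by norm_num) (by norm_num)
  refine h4.trans (by norm_num)

open Classical in
lemma fixed_z (lam : Finset X → X → ℝ) (F : Finset (Finset X)) (p : ℝ) (hp : 0 ≤ p) (s : ℕ)
    (pi : ℕ → ℝ) (h0 : ∀ k, 0 ≤ pi k) (h1 : ∑ k ∈ range (s + 1), pi k = 1)
    (h2 : ∀ k < s, pi k = 1000 * p * 8 ^ k) (z : X → ℕ) (hz : z ∈ Om X s) :
    ∑ a ∈ (Om X s).filter (fun a => Rel lam F a z), (∏ x, pi (a x)) * p ^ (low a z).card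
      ≤ (∏ x, pi (z x)) * (1 / 8) := by
  set P : Finset (Fin s → ℕ) :=
    Fintype.piFinset (fun _ : Fin s => range (Fintype.card X + 1)) with hP
  have h0P : (fun _ => 0) ∈ P := by
    rw [hP, Fintype.mem_piFinset]
    simp
  have hmaps : ∀ a ∈ (Om X s).filter (fun a => Rel lam F a z),
      ucount s a z ∈ P.erase (fun _ => 0) := by
    intro a ha
    obtain ⟨ha2, hrel⟩ := mem_filter.1 ha
    rw [mem_Om] at ha2
    refine mem_erase.2 ⟨?_, ?_⟩
    · intro hu
      apply hrel.2.1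
      funext x
      by_contra hne
      have hlt : z x < a x := lt_of_le_of_ne (hrel.1 x) hne
      have hs : z x < s := lt_of_lt_of_le hlt (ha2 x)
      have h3 := congrFun hu ⟨z x, hs⟩
      unfold ucount at h3
      rw [card_eq_zero, filter_eq_empty_iff] at h3
      exact h3 (x := x) (mem_filter.2 ⟨mem_univ _, hlt⟩) rfl
    · rw [hP, Fintype.mem_piFinset]
      intro k
      rw [mem_range, Nat.lt_succ_iff]
      exact card_le_univ _
  rw [← sum_fiberwise_of_maps_to hmaps]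
  refine (sum_le_sum (fun u _ => fixed_zu lam F p hp s pi h0 h1 h2 z hz u)).trans ?_
  rw [← mul_sum]
  refine mul_le_mul_of_nonneg_left ?_ (prod_nonneg (fun x _ => h0 _))
  have h3 := add_sum_erase P
    (fun u : Fin s → ℕ => ∏ k : Fin s, (3 / 500 * (1 / 2 : ℝ) ^ (k : ℕ)) ^ u k) h0P
  have h4 := geom_prod_le s (Fintype.card X)
  rw [prod_univ_sum] at h4
  simp only [pow_zero, prod_const_one] at h3
  rw [← hP] at h4
  linarith

open Classical in
/-- The probability of a bad level function is at most one quarter. -/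
lemma prob_bad_le (lam : Finset X → X → ℝ) (F : Finset (Finset X)) (p : ℝ) (hp : 0 ≤ p) (s : ℕ)
    (hns : ∀ G : Finset (Finset X), (∀ H ∈ F, ∃ S ∈ G, S ⊆ H) → 1 / 2 < ∑ S ∈ G, p ^ S.card)
    (pi : ℕ → ℝ) (h0 : ∀ k, 0 ≤ pi k) (h1 : ∑ k ∈ range (s + 1), pi k = 1)
    (h2 : ∀ k < s, pi k = 1000 * p * 8 ^ k) :
    ∑ a ∈ (Om X s).filter (fun a => ¬ Good lam F a), ∏ x, pi (a x) ≤ 1 / 4 := by
  have hP0 : ∀ a : X → ℕ, 0 ≤ ∏ x, pi (a x) := fun a => prod_nonneg (fun x _ => h0 _)
  have e1 : (∑ a ∈ (Om X s).filter (fun a => ¬ Good lam F a), ∏ x, pi (a x)) * (1 / 2)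
      ≤ ∑ a ∈ Om X s, ∑ z ∈ (Om X s).filter (Rel lam F a),
        (∏ x, pi (a x)) * p ^ (low a z).card := by
    rw [sum_mul]
    refine le_trans (sum_le_sum ?_) (sum_le_sum_of_subset_of_nonneg
      (filter_subset (fun a => ¬ Good lam F a) _) ?_)
    · intro a ha
      obtain ⟨ha1, ha2⟩ := mem_filter.1 ha
      rw [← mul_sum]
      exact mul_le_mul_of_nonneg_left (bad_cost lam F p hp s hns a ha1 ha2) (hP0 a)
    · intro a _ _
      exact sum_nonneg (fun z _ => mul_nonneg (hP0 a) (pow_nonneg hp _))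
  have e2 : ∑ a ∈ Om X s, ∑ z ∈ (Om X s).filter (Rel lam F a),
        (∏ x, pi (a x)) * p ^ (low a z).card
      = ∑ z ∈ Om X s, ∑ a ∈ (Om X s).filter (fun a => Rel lam F a z),
        (∏ x, pi (a x)) * p ^ (low a z).card := by
    simp only [sum_filter]
    exact sum_comm
  have e3 : ∑ z ∈ Om X s, ∏ x, pi (z x) = 1 := by
    unfold Om
    rw [← prod_univ_sum]
    simp [h1]
  have e4 := sum_le_sum (fun z hz => fixed_z lam F p hp s pi h0 h1 h2 z hz)
  rw [← sum_mul, e3] at e4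
  linarith

end Vale.Agent.P034
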