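import Mathlib

/-!
Combinatorial core: level sets of a weight function, the slack condition, and the
maximal admissible lowering of a level function.
-/

namespace Vale.Agent.P034

open Finset

variable {X : Type*} [Fintype X] [DecidableEq X]

/-- The level set of `x` in `H` for the weights `lam H`. -/
noncomputable def lev (lam : Finset X → X → ℝ) (H : Finset X) (x : X) : Finset X :=
  H.filter (fun y => lam H x ≤ lam H y)

/-- The slack condition. -/
def OK (lam : Finset X → X → ℝ) (H : Finset X) (z : X → ℕ) (M : ℕ → ℕ) : Prop :=
  ∀ k : ℕ, ∀ x ∈ H,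
    2 ^ k * ((lev lam H x).filter (fun y => k < z y)).card ≤ (lev lam H x).card - 2 ^ k * M k

/-- Number of lowered points with new level at most `k`. -/
def slack (a z : X → ℕ) (k : ℕ) : ℕ :=
  (univ.filter (fun x => z x ≤ k ∧ z x < a x)).card

/-- The points of `H` whose level set has at most `m` points. -/
noncomputable def box (lam : Finset X → X → ℝ) (H : Finset X) (m : ℕ) : Finset X :=
  H.filter (fun x => (lev lam H x).card ≤ m)

omit [Fintype X] [DecidableEq X] in
lemma card_box_le (lam : Finset X → X → ℝ) (H : Finset X) (m : ℕ) :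
    (box lam H m).card ≤ m := by
  rcases (box lam H m).eq_empty_or_nonempty with h | h
  · simp [h]
  · obtain ⟨x, hx, hmin⟩ := exists_min_image (box lam H m) (lam H) h
    have hx' := mem_filter.1 hx
    refine le_trans (card_le_card ?_) hx'.2
    intro y hy
    exact mem_filter.2 ⟨(mem_filter.1 hy).1, hmin y hy⟩

omit [Fintype X] [DecidableEq X] in
lemma lev_subset_of_mem (lam : Finset X → X → ℝ) (H : Finset X) {x y : X}
    (h : x ∈ lev lam H y) : lev lam H x ⊆ lev lam H y := by
  intro w hw
  have h1 := mem_filter.1 h
  have h2 := mem_filter.1 hw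
  exact mem_filter.2 ⟨h2.1, h1.2.trans h2.2⟩

/-- Admissible lowerings. -/
def Adm (lam : Finset X → X → ℝ) (F : Finset (Finset X)) (a : X → ℕ) (H0 : Finset X)
    (z : X → ℕ) : Prop :=
  (∀ x, z x ≤ a x) ∧ (∀ x, z x < a x → x ∈ H0) ∧ ∃ H ∈ F, OK lam H z (slack a z)

lemma slack_update_le (a z : X → ℕ) (x : X) (k : ℕ) :
    slack a (Function.update z x (z x + 1)) k ≤ slack a z k := by
  unfold slack
  refine card_le_card ?_
  intro y hy
  simp only [mem_filter, mem_univ, true_and] at hy ⊢
  by_cases h : y = x
  · subst h
    simp only [Function.update_self] at hy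
    omega
  · simpa [Function.update_of_ne h] using hy

lemma slack_update_self (a z : X → ℕ) (x : X) (hx : z x < a x) :
    slack a (Function.update z x (z x + 1)) (z x) + 1 ≤ slack a z (z x) := by
  unfold slack
  refine card_lt_card ⟨?_, ?_⟩
  · intro y hy
    simp only [mem_filter, mem_univ, true_and] at hy ⊢
    by_cases h : y = x
    · subst h
      simp only [Function.update_self] at hy
      omega
    · simpa [Function.update_of_ne h] using hy
  · intro hsub
    have : x ∈ univ.filter (fun y => z y ≤ z x ∧ z y < a y) := by simp [hx]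
    have h2 := hsub this
    simp at h2

lemma OK_update (lam : Finset X → X → ℝ) (a z : X → ℕ) (H : Finset X) (x : X)
    (hx : z x < a x) (hOK : OK lam H z (slack a z))
    (hnot : x ∉ box lam H (2 ^ z x * slack a z (z x))) :
    OK lam H (Function.update z x (z x + 1)) (slack a (Function.update z x (z x + 1))) := by
  intro k y hy
  have h0 := hOK k y hy
  have hle := slack_update_le a z x k
  have hle2 : 2 ^ k * slack a (Function.update z x (z x + 1)) k ≤ 2 ^ k * slack a z k :=
    Nat.mul_le_mul_left _ hle
  by_cases hcase : k = z x ∧ x ∈ lev lam H y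
  · obtain ⟨rfl, hxy⟩ := hcase
    have hxH : x ∈ H := (mem_filter.1 hxy).1
    have hbig : 2 ^ z x * slack a z (z x) < (lev lam H x).card := by
      by_contra hc
      exact hnot (mem_filter.2 ⟨hxH, not_lt.1 hc⟩)
    have hbig2 : (lev lam H x).card ≤ (lev lam H y).card :=
      card_le_card (lev_subset_of_mem lam H hxy)
    have hself := slack_update_self a z x hx
    have hself2 : 2 ^ z x * (slack a (Function.update z x (z x + 1)) (z x) + 1)
        ≤ 2 ^ z x * slack a z (z x) := Nat.mul_le_mul_left _ hself
    have hcard : ((lev lam H y).filter (fun w => z x < Function.update z x (z x + 1) w)).card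
        ≤ ((lev lam H y).filter (fun w => z x < z w)).card + 1 := by
      refine le_trans (card_le_card ?_) (card_insert_le x _)
      intro w hw
      simp only [mem_filter, mem_insert] at hw ⊢
      by_cases h : w = x
      · exact Or.inl h
      · right
        simpa [Function.update_of_ne h] using hw
    have hcard2 := Nat.mul_le_mul_left (2 ^ z x) hcard
    rw [Nat.mul_add] at hcard2 hself2
    omega
  · have hcard : ((lev lam H y).filter (fun w => k < Function.update z x (z x + 1) w))
        ⊆ ((lev lam H y).filter (fun w => k < z w)) := by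
      intro w hw
      simp only [mem_filter] at hw ⊢
      by_cases h : w = x
      · subst h
        simp only [Function.update_self] at hw
        refine ⟨hw.1, ?_⟩
        by_contra hc
        exact hcase ⟨by omega, hw.1⟩
      · simpa [Function.update_of_ne h] using hw
    have hcard2 := Nat.mul_le_mul_left (2 ^ k) (card_le_card hcard)
    omega

lemma exists_max_adm (lam : Finset X → X → ℝ) (F : Finset (Finset X)) (a : X → ℕ)
    (H0 : Finset X) (hH0 : H0 ∈ F) :
    ∃ z, Adm lam F a H0 z ∧ ∀ H ∈ F, OK lam H z (slack a z) → ∀ x, z x < a x →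
      x ∈ box lam H (2 ^ z x * slack a z (z x)) := by
  classical
  have hne : ((Fintype.piFinset (fun x => range (a x + 1))).filter (Adm lam F a H0)).Nonempty := by
    refine ⟨fun x => if x ∈ H0 then 0 else a x, mem_filter.2 ⟨?_, ?_, ?_, H0, hH0, ?_⟩⟩
    · rw [Fintype.mem_piFinset]
      intro x
      rw [mem_range]
      split_ifs <;> omega
    · intro x
      dsimp only
      split_ifs <;> omega
    · intro x hx
      dsimp only at hx
      by_contra h
      simp [h] at hx
    · intro k x _
      have : (lev lam H0 x).filter (fun y => k < (if y ∈ H0 then 0 else a y)) = ∅ := by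
        rw [filter_eq_empty_iff]
        intro y hy
        simp [(mem_filter.1 hy).1]
      simp only [this]
      simp
  obtain ⟨z, hz, hmax⟩ := exists_max_image _ (fun z : X → ℕ => ∑ x, z x) hne
  have hadm := (mem_filter.1 hz).2
  refine ⟨z, hadm, ?_⟩
  intro H hH hOK x hx
  by_contra hnot
  have hz' : Function.update z x (z x + 1) ∈
      (Fintype.piFinset (fun x => range (a x + 1))).filter (Adm lam F a H0) := by
    have hle : ∀ y, Function.update z x (z x + 1) y ≤ a y := by
      intro y
      by_cases h : y = x
      · subst h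
        simp only [Function.update_self]
        omega
      · rw [Function.update_of_ne h]
        exact hadm.1 y
    refine mem_filter.2 ⟨?_, hle, ?_, H, hH, OK_update lam a z H x hx hOK hnot⟩
    · rw [Fintype.mem_piFinset]
      intro y
      rw [mem_range]
      exact Nat.lt_succ_of_le (hle y)
    · intro y hy
      by_cases h : y = x
      · subst h
        exact hadm.2.1 y hx
      · rw [Function.update_of_ne h] at hy
        exact hadm.2.1 y hy
  have h1 := hmax _ hz'
  have h2 : ∑ y, z y < ∑ y, Function.update z x (z x + 1) y := by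
    refine sum_lt_sum ?_ ⟨x, mem_univ _, by simp⟩
    intro y _
    by_cases h : y = x
    · subst h
      simp
    · rw [Function.update_of_ne h]
  omega

omit [Fintype X] [DecidableEq X] in
/-- Layer-cake inequality. -/
lemma layer_cake (b : X → ℝ) (n : ℕ) : ∀ (H : Finset X) (l : X → ℝ), H.card ≤ n →
    (∀ x ∈ H, 0 ≤ l x) → (∀ x ∈ H, 0 ≤ ∑ y ∈ H.filter (fun y => l x ≤ l y), b y) →
    0 ≤ ∑ y ∈ H, l y * b y := by
  induction n with
  | zero =>
    intro H l hc _ _
    have : H = ∅ := card_eq_zero.1 (by omega)
    simp [this]
  | succ n ih =>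
    intro H l hc hl hb
    rcases H.eq_empty_or_nonempty with h | h
    · simp [h]
    obtain ⟨x0, hx0, hmin⟩ := exists_min_image H l h
    have h1 : 0 ≤ ∑ y ∈ H, b y := by
      have := hb x0 hx0
      rwa [filter_true_of_mem hmin] at this
    have h2 : 0 ≤ ∑ y ∈ H.filter (fun y => l x0 < l y), (l y - l x0) * b y := by
      refine ih _ (fun y => l y - l x0) ?_ ?_ ?_
      · have : (H.filter (fun y => l x0 < l y)).card < H.card := by
          refine card_lt_card ⟨filter_subset _ _, ?_⟩
          intro hsub
          have := hsub hx0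
          simp at this
        omega
      · intro y hy
        have := (mem_filter.1 hy).2
        linarith
      · intro x hx
        have hx' := mem_filter.1 hx
        have := hb x hx'.1
        convert this using 2
        ext y
        simp only [mem_filter]
        constructor
        · rintro ⟨⟨h1, _⟩, h3⟩
          exact ⟨h1, by linarith⟩
        · rintro ⟨h1, h3⟩
          exact ⟨⟨h1, by linarith [hx'.2]⟩, by linarith⟩
    have h3 : ∑ y ∈ H.filter (fun y => l x0 < l y), (l y - l x0) * b y
        = ∑ y ∈ H, (l y - l x0) * b y := by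
      refine sum_filter_of_ne ?_
      intro y hy hne
      have h4 := hmin y hy
      rcases h4.lt_or_eq with h5 | h5
      · exact h5
      · exfalso
        apply hne
        rw [h5]
        simp
    have h4 : ∑ y ∈ H, l y * b y = l x0 * ∑ y ∈ H, b y + ∑ y ∈ H, (l y - l x0) * b y := by
      rw [mul_sum, ← sum_add_distrib]
      refine sum_congr rfl (fun y _ => by ring)
    rw [h4, ← h3]
    have := mul_nonneg (hl x0 hx0) h1
    linarith

omit [Fintype X] [DecidableEq X] in
/-- With zero slack, the levels average to at most two on each level set. -/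
lemma sum_le_of_OK (lam : Finset X → X → ℝ) (H : Finset X) (a : X → ℕ)
    (h : OK lam H a (fun _ => 0)) (x : X) (hx : x ∈ H) :
    0 ≤ ∑ y ∈ lev lam H x, ((2 : ℝ) - a y) := by
  set A := lev lam H x with hA
  obtain ⟨s, hs⟩ : ∃ s, ∀ y ∈ A, a y ≤ s := ⟨A.sup a, fun y hy => le_sup hy⟩
  have h1 : ∑ y ∈ A, (a y : ℝ) = ∑ k ∈ range s, ((A.filter (fun y => k < a y)).card : ℝ) := by
    have : ∀ y ∈ A, (a y : ℝ) = ∑ k ∈ range s, if k < a y then (1 : ℝ) else 0 := by
      intro y hy
      rw [sum_boole]
      congr 1
      have : (range s).filter (fun k => k < a y) = range (a y) := by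
        ext k
        have := hs y hy
        simp only [mem_filter, mem_range]
        omega
      rw [this, card_range]
    rw [sum_congr rfl this, sum_comm]
    refine sum_congr rfl (fun k _ => ?_)
    rw [sum_boole]
  have h2 : ∀ k ∈ range s, ((A.filter (fun y => k < a y)).card : ℝ) ≤ A.card * (1 / 2) ^ k := by
    intro k _
    have h3 := h k x hx
    simp only [mul_zero, tsub_zero] at h3
    have h4 : (2 : ℝ) ^ k * ((A.filter (fun y => k < a y)).card : ℝ) ≤ A.card := by
      exact_mod_cast h3
    have h5 : (0 : ℝ) < 2 ^ k := by positivity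
    rw [one_div, inv_pow, ← div_eq_mul_inv, le_div_iff₀ h5]
    linarith
  have h6 : ∑ k ∈ range s, ((1 : ℝ) / 2) ^ k ≤ 2 := sum_geometric_two_le s
  have h7 := sum_le_sum h2
  rw [← mul_sum] at h7
  rw [sum_sub_distrib, h1, sum_const, nsmul_eq_mul]
  have h8 : (A.card : ℝ) * ∑ k ∈ range s, ((1 : ℝ) / 2) ^ k ≤ A.card * 2 :=
    mul_le_mul_of_nonneg_left h6 (by positivity)
  linarith

end Vale.Agent.P034
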